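import Vale.Agent.P061.Complete

namespace Vale.Agent.Results.P061.ConstantAtLeastFour

open Vale.Agent.P061

theorem result :
    (∀ k : ℕ, 1 ≤ k → ∃ (V E : Type) (_ : Fintype V) (_ : Fintype E) (G : MGraph V E),
      2 ≤ Fintype.card V ∧ G.EdgeConnected k ∧
        ∀ (T : Finset E) (α : ℝ), G.IsSpanningTree T → G.Thin T α →
          4 * (k : ℝ) / ((k : ℝ) + 1) ^ 2 ≤ α) ∧
    (∀ C : ℝ, StrongThinTree C → 4 ≤ C) := by
  have first : ∀ k : ℕ, 1 ≤ k → ∃ (V E : Type) (_ : Fintype V) (_ : Fintype E) (G : MGraph V E),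
      2 ≤ Fintype.card V ∧ G.EdgeConnected k ∧
        ∀ (T : Finset E) (α : ℝ), G.IsSpanningTree T → G.Thin T α →
          4 * (k : ℝ) / ((k : ℝ) + 1) ^ 2 ≤ α := by
    intro k hk
    refine ⟨Fin (k + 1), {x : Sym2 (Fin (k + 1)) // ¬ x.IsDiag}, inferInstance, inferInstance,
      completeMG (k + 1), by simpa using hk, by simpa using completeMG_edgeConnected (k + 1), ?_⟩
    intro T α hT hα
    have h := completeMG_thin_lower (k + 1) (by omega) T hT α hα
    push_cast at h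
    have e : (k : ℝ) + 1 - 1 = (k : ℝ) := by ring
    rwa [e] at h
  refine ⟨first, ?_⟩
  intro C hC
  by_contra hlt
  rw [not_le] at hlt
  obtain ⟨m, hm⟩ := exists_nat_gt (8 / (4 - C))
  have hpos : 0 < 4 - C := by linarith
  have hm0 : (0 : ℝ) < (m : ℝ) := lt_trans (by positivity) hm
  have hm1 : 1 ≤ m := by
    have : 0 < m := by exact_mod_cast hm0
    omega
  obtain ⟨V, E, iV, iE, G, hV, hG, hthin⟩ := first m hm1
  obtain ⟨T, hT, hTthin⟩ := hC m hm1 V E G hV hG
  have h := hthin T _ hT hTthin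
  rw [div_le_div_iff₀ (by positivity) hm0] at h
  rw [div_lt_iff₀ hpos] at hm
  nlinarith [mul_pos hm0 hm0, mul_pos hm0 hpos]

end Vale.Agent.Results.P061.ConstantAtLeastFour
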