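import Vale.Agent.Results.P061.ConstantAtLeastFour

namespace Vale.Agent.Results.P061.D_ConstantOnly

open Vale.Agent.P061

/-- Every constant `C` for which the strong thin tree statement holds is at least `4`. -/
theorem result : ∀ C : ℝ, StrongThinTree C → 4 ≤ C :=
  Vale.Agent.Results.P061.ConstantAtLeastFour.result.2

end Vale.Agent.Results.P061.D_ConstantOnly
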